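import Vale.Agent.P032.R2.H962.SilCore
import Vale.Agent.P032.R2.H838.ChordPt
import Vale.Agent.P032.R2.H245.Pent
import Vale.Agent.P032.S5.H843.Hand6

/-!
# P032: every colour of a clean six-coloured point is in a pair of its unit circle
-/

set_option autoImplicit false

open Set Filter Topology Metric

noncomputable section

namespace Vale.Agent.P032.R2.H962

open Vale.Agent.P032.Six Vale.Agent.P032.S5.H767 Vale.Agent.P032.Words6.H704

variable {U : Fin 6 → Set ℂ} {T : ℂ → Set (Fin 6)} {z : ℂ}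

/-- `Fin 5` and `ZMod 5` -/
def zf (x : Fin 5) : ZMod 5 := x

/-- `Fin 5` and `ZMod 5` -/
def fz (x : ZMod 5) : Fin 5 := x

theorem zf_fz (x : ZMod 5) : zf (fz x) = x := rfl

theorem fz_zf (x : Fin 5) : fz (zf x) = x := rfl

theorem zf_inj : ∀ x y : Fin 5, zf x = zf y → x = y := fun _ _ h => h

theorem zf_sub : ∀ m : Fin 5, zf m - 1 = zf (m + 4) := by decide

theorem zf_add : ∀ m : Fin 5, zf m + 1 = zf (m + 1) := by decide

theorem lm_pent : ∀ (m : ZMod 5) (x : Fin 5), (lm (Fin.castSucc (fz m))).testBit x.val = true ↔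
    (zf x = m - 1 ∨ zf x = m + 1) := by decide +kernel

theorem lm_chord : ∀ x : Fin 5, (lm 5).testBit x.val = true ↔ (zf x = 0 ∨ zf x = 4) := by
  decide +kernel

theorem lab_of (C : Six6 U T z)
    (hmin : ∀ z, 4 ≤ (T z).ncard → ∀ s, s ⊆ T z → s ≠ T z →
      ¬ ∀ᶠ w in 𝓝 z, ∃ i ∈ s, w ∈ U i ∨ (w ∈ XX U ∧ i ∈ Pal U w)) {s : Fin 6}
    (hs : ∀ j, ¬ MC T z s j) : ∃ c : Fin 5 → Fin 6, Lab T z s c := by
  obtain ⟨c, hP, hne, hcov, hmc, -⟩ := H245.pent C hmin hs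
  refine ⟨fun x => c (zf x), ⟨fun x y hxy => zf_inj x y (hP.1 hxy), fun m => hne _, fun j => ?_,
    fun m => ?_, fun a b hab => ?_⟩⟩
  · rcases hcov j with h | ⟨m, hm⟩
    · exact Or.inl h
    · exact Or.inr ⟨fz m, hm⟩
  · have h := hmc (zf m)
    rw [zf_sub, zf_add] at h
    exact h
  · rcases hP.2 a b hab with ⟨m, ⟨rfl, rfl⟩ | ⟨rfl, rfl⟩⟩ | ⟨rfl, rfl⟩ | ⟨rfl, rfl⟩
    · refine ⟨Fin.castSucc (fz m), fun x => ?_⟩
      show (lm (Fin.castSucc (fz m))).testBit x.val = true ↔ _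
      rw [lm_pent, hP.1.eq_iff, hP.1.eq_iff]
    · refine ⟨Fin.castSucc (fz m), fun x => ?_⟩
      show (lm (Fin.castSucc (fz m))).testBit x.val = true ↔ _
      rw [lm_pent, hP.1.eq_iff, hP.1.eq_iff, or_comm]
    · refine ⟨5, fun x => ?_⟩
      show (lm 5).testBit x.val = true ↔ _
      rw [lm_chord, hP.1.eq_iff, hP.1.eq_iff]
    · refine ⟨5, fun x => ?_⟩
      show (lm 5).testBit x.val = true ↔ _
      rw [lm_chord, hP.1.eq_iff, hP.1.eq_iff, or_comm]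

/-- **No silent colour**, from the finite statement, with the five-coloured points near `z` as a
hypothesis. -/
theorem no_silent_of (hfin : Fin2) (C : Six6 U T z)
    (hmin : ∀ z, 4 ≤ (T z).ncard → ∀ s, s ⊆ T z → s ≠ T z →
      ¬ ∀ᶠ w in 𝓝 z, ∃ i ∈ s, w ∈ U i ∨ (w ∈ XX U ∧ i ∈ Pal U w)) {s : Fin 6}
    (h5 : (∀ j, ¬ MC T z s j) → ∀ᶠ w in 𝓝 z, w ≠ z → s ∉ T w → (T w).ncard ≠ 5) :
    ∃ q, dist q z = 1 ∧ s ∈ T q ∧ (T q).ncard = 2 := by
  by_contra hcon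
  push Not at hcon
  have hs : ∀ j, ¬ MC T z s j := by
    rintro j ⟨hsj, q, hq, hT⟩
    exact hcon q hq (by rw [hT]; exact Or.inl rfl) (by rw [hT]; exact Set.ncard_pair hsj)
  obtain ⟨c, L⟩ := lab_of C hmin hs
  have hzX : z ∈ XX U := by
    obtain ⟨i, hi⟩ := C.irr.ne (pt z 0)
    exact C.irr.mem_XX (by rw [dist_comm]; exact dist_pt z 0) (C.all i) (C.irr.sub _ hi)
  obtain ⟨τ, g, W, -, -, -, -, hc, hev⟩ := C.irr.exists_chord_pt (s := s) (hzX s)
  have H : Chd T z s τ W := by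
    refine ⟨hc, fun a b ha hb ε hε => ?_⟩
    filter_upwards [hev a b ha hb ε hε] with m hm u hu
    obtain ⟨h1, h2, h3, -, -, h6, -⟩ := hm u hu
    exact ⟨h1, h2, h3, h6⟩
  exact core hfin C L hmin (h5 hs) H

end Vale.Agent.P032.R2.H962
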