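import Vale.Agent.P032.R2.H962.SilEnd
import Vale.Agent.P032.R2.H306.RInd

/-!
# P032: no silent colour at a clean six-coloured point: the contradiction
-/

set_option autoImplicit false

open Set Filter Topology Metric

noncomputable section

namespace Vale.Agent.P032.R2.H962

open Vale.Agent.P032.Six Vale.Agent.P032.S5.H767 Vale.Agent.P032.Words6.H704

variable {U : Fin 6 → Set ℂ} {T : ℂ → Set (Fin 6)} {z : ℂ} {s : Fin 6} {c : Fin 5 → Fin 6}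
  {τ : ℝ} {W : ℕ → ℝ → ℂ}

theorem fin_shift (z : ℂ) (u : ℝ) (k : Fin 6) :
    pt z (u + 1 + (k.val : ℝ)) = pt z (u + ((k + 1).val : ℝ)) := by
  rw [pt_fin]; congr 1; ring

/-- **The contradiction.** -/
theorem core (hfin : Fin2) (C : Six6 U T z) (L : Lab T z s c)
    (hmin : ∀ z, 4 ≤ (T z).ncard → ∀ s, s ⊆ T z → s ≠ T z →
      ¬ ∀ᶠ w in 𝓝 z, ∃ i ∈ s, w ∈ U i ∨ (w ∈ XX U ∧ i ∈ Pal U w))
    (h5 : ∀ᶠ w in 𝓝 z, w ≠ z → s ∉ T w → (T w).ncard ≠ 5) (H : Chd T z s τ W) : False := by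
  obtain ⟨inv, hA, hB⟩ := hfin
  have hG := C.gn_dense
  have hGo : IsOpen {u : ℝ | Gn T z u} := gn_open
  -- a generic time in `(τ, τ + 1)`
  obtain ⟨u, hu, hu1⟩ : ∃ u, Gn T z u ∧ u ∈ Ioo τ (τ + 1) := by
    obtain ⟨u, hu, hug⟩ := hG.exists_mem_open isOpen_Ioo
      (nonempty_Ioo.2 (show τ < τ + 1 by linarith))
    exact ⟨u, hu, hug⟩
  have hu2 : Gn T z (u + 1) := hu.shift
  obtain ⟨w, κ, hS⟩ := exists_sa C L H (u := u) hu1.1 (by linarith [hu1.2])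
  obtain ⟨x, hx⟩ := exists_kap L C.irr H (u := u + 1 + 1) (by linarith [hu1.1])
    (by linarith [hu1.2])
  have hS' : SA T z c W (u + 1) (fun k => w (k + 1)) ![κ 1, x] := by
    refine ⟨fun k y hy => ?_, fun a => ?_⟩
    · rw [fin_shift]; exact hS.1 (k + 1) y hy
    · fin_cases a
      · have h1 := hS.2 1
        have e : u + 1 + (((pl2 0).val : ℕ) : ℝ) = u + (((pl2 1).val : ℕ) : ℝ) := by
          simp [pl2]
        show ∀ᶠ m in (F : Filter ℕ), c (κ 1) ∈ T (W m (u + 1 + (((pl2 0).val : ℕ) : ℝ)))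
        rw [e]; exact h1
      · have e : u + 1 + (((pl2 1).val : ℕ) : ℝ) = u + 1 + 1 := by
          simp [pl2]
        show ∀ᶠ m in (F : Filter ℕ), c x ∈ T (W m (u + 1 + (((pl2 1).val : ℕ) : ℝ)))
        rw [e]; exact hx
  have hst := st_of C H hu1.1 (by linarith [hu1.2]) hu hS
  have hst' := st_of C H (u := u + 1) (by linarith [hu1.1]) (by linarith [hu1.2]) hu2 hS'
  refine hB w κ x hst hst' ?_
  refine H306.const_generic (G := {u : ℝ | Gn T z u}) hG hGo (a := τ) (b := τ + 2)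
    (P := fun u n => ∃ w κ, SA T z c W u w κ ∧ inv w κ = n) ?_ ?_ (u := u + 1) (v := u) hu2 hu
    (by linarith [hu1.1]) (by linarith [hu1.2]) hu1.1 (by linarith [hu1.2])
    ⟨_, _, hS', rfl⟩ ⟨_, _, hS, rfl⟩
  · intro v hv h1 h2
    obtain ⟨w, κ, hw⟩ := exists_sa C L H h1 h2
    exact ⟨_, w, κ, hw, rfl⟩
  · intro t ht
    obtain ⟨η, hη, hst⟩ := local_step C L hmin h5 H ht.1 ht.2
    refine ⟨η, hη, fun v v' hv hv' h1 h2 h3 h4 h6 h7 m n hm hn => ?_⟩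
    obtain ⟨w1, κ1, hS1, rfl⟩ := hm
    obtain ⟨w2, κ2, hS2, rfl⟩ := hn
    obtain ⟨k1, k2⟩ := hst v v' h1 h2 w1 w2 κ1 κ2 hS1 hS2
    exact hA w1 w2 κ1 κ2 (st_of C H h3 h4 hv hS1) (st_of C H h6 h7 hv' hS2) k1 k2

end Vale.Agent.P032.R2.H962
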