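import Mathlib

/-!
# P032: a silent colour: the finite system of an `s`-free chord

The five active colours are `0, .., 4` (`Fin 5`), sets of colours are masks.  Letters: `0, .., 4` are
the diagonals `{m - 1, m + 1}` of the pentagon, `5` is the pair `{0, 4}`.  A word is a function
`w : Fin 6 → Fin 6` (six letters), the colours of the chord in three directions are
`κ : Fin 3 → Fin 5`.
-/

set_option autoImplicit false

namespace Vale.Agent.P032.R2.H962

/-- number of colours of a mask -/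
def pc (n : ℕ) : ℕ := n % 2 + n / 2 % 2 + n / 4 % 2 + n / 8 % 2 + n / 16 % 2

/-- the letters as masks: `{4, 1}, {0, 2}, {1, 3}, {2, 4}, {3, 0}` and `{0, 4}` -/
def lm : Fin 6 → ℕ := ![18, 5, 10, 20, 9, 17]

/-- the contacts `{i, i + 1}` as masks -/
def ct : Fin 5 → ℕ := ![3, 6, 12, 24, 17]

/-- the colour `x` is in the mask `n` -/
def inm (x : Fin 5) (n : ℕ) : Prop := n.testBit x.val = true

/-- a letter disjoint from the contact `{i, i + 1}` fits to the mask `V` -/
def av (i : Fin 5) (V : ℕ) : Prop := ∃ l : Fin 6, (lm l).land (ct i) = 0 ∧ pc ((lm l).lor V) ≤ 3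

/-- `K` is closed under the contacts which are possible at two places with the masks `V`, `V'` -/
def Cl (V V' : ℕ) (K : Finset (Fin 5)) : Prop :=
  ∀ i : Fin 5, av i V → av i V' → (i ∈ K ↔ i + 1 ∈ K)

/-- the colours `x`, `y` are connected by contacts -/
def Cn (V V' : ℕ) (x y : Fin 5) : Prop := ∀ K : Finset (Fin 5), Cl V V' K → x ∈ K → y ∈ K

/-- the union of the letters at the place `k` -/
def un (w w' : Fin 6 → Fin 6) (k : Fin 6) : ℕ := (lm (w k)).lor (lm (w' k))

/-- legal words -/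
def Leg (w : Fin 6 → Fin 6) : Prop := ∀ k : Fin 6, (lm (w k)).land (lm (w (k + 1))) = 0

/-- the colour `x` is possible in the direction between the places `a` and `a + 3` -/
def LegK (w : Fin 6 → Fin 6) (a : Fin 6) (x : Fin 5) : Prop :=
  ¬ inm x (lm (w a)) ∧ ¬ inm x (lm (w (a + 3)))

/-- two words near one instant -/
def Nb (w w' : Fin 6 → Fin 6) : Prop :=
  (∀ k : Fin 6, pc (un w w' k) ≤ 3) ∧
    ∀ k : Fin 6, pc (un w w' k) = 3 → pc (un w w' (k + 1)) = 3 →
      pc ((un w w' k).land (un w w' (k + 1))) ≤ 1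

/-- the three directions: places `0`, `1`, `2` -/
def pl : Fin 3 → Fin 6 := ![0, 1, 2]

/-- the states -/
structure St (w : Fin 6 → Fin 6) (κ : Fin 3 → Fin 5) : Prop where
  leg : Leg w
  kap : ∀ a : Fin 3, LegK w (pl a) (κ a)

/-- one direction -/
def Dir (w w' : Fin 6 → Fin 6) (κ κ' : Fin 3 → Fin 5) (a : Fin 3) : Prop :=
  Cn (un w w' (pl a)) (un w w' (pl a + 3)) (κ a) (κ' a)

/-- **The finite statement.** -/
def Fin1 : Prop :=
  ∃ inv : (Fin 6 → Fin 6) → (Fin 3 → Fin 5) → ℕ,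
    (∀ w w' κ κ', St w κ → St w' κ' → Nb w w' → (∀ a, Dir w w' κ κ' a) → inv w κ = inv w' κ') ∧
    ∀ w w' κ κ' x, Leg w → St w' κ' → Nb w w' → LegK w 1 (κ 1) → LegK w 2 (κ 2) →
      LegK w 3 x → Dir w w' κ κ' 1 → Dir w w' κ κ' 2 →
      inv w' κ' ≠ inv (fun k => w (k + 1)) ![κ 1, κ 2, x]

end Vale.Agent.P032.R2.H962
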