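import Vale.Agent.P032.R2.H962.SilDefs

/-!
# P032: a silent colour: the finite system with two directions
-/

set_option autoImplicit false

namespace Vale.Agent.P032.R2.H962

/-- the two directions: places `0`, `1` -/
def pl2 : Fin 2 → Fin 6 := ![0, 1]

/-- the states -/
structure St2 (w : Fin 6 → Fin 6) (κ : Fin 2 → Fin 5) : Prop where
  leg : Leg w
  kap : ∀ a : Fin 2, LegK w (pl2 a) (κ a)

/-- one direction -/
def Dir2 (w w' : Fin 6 → Fin 6) (κ κ' : Fin 2 → Fin 5) (a : Fin 2) : Prop :=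
  Cn (un w w' (pl2 a)) (un w w' (pl2 a + 3)) (κ a) (κ' a)

/-- **The finite statement, two directions.** -/
def Fin2 : Prop :=
  ∃ inv : (Fin 6 → Fin 6) → (Fin 2 → Fin 5) → ℕ,
    (∀ w w' κ κ', St2 w κ → St2 w' κ' → Nb w w' → (∀ a, Dir2 w w' κ κ' a) →
      inv w κ = inv w' κ') ∧
    ∀ w κ x, St2 w κ → St2 (fun k => w (k + 1)) ![κ 1, x] →
      inv (fun k => w (k + 1)) ![κ 1, x] ≠ inv w κ

end Vale.Agent.P032.R2.H962
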