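import Vale.Agent.P032.R2.H962.SilStep

/-!
# P032: no silent colour at a clean six-coloured point: the induction
-/

set_option autoImplicit false

open Set Filter Topology Metric

noncomputable section

namespace Vale.Agent.P032.R2.H962

open Vale.Agent.P032.Six Vale.Agent.P032.S5.H767 Vale.Agent.P032.Words6.H704

variable {U : Fin 6 → Set ℂ} {T : ℂ → Set (Fin 6)} {z : ℂ} {s : Fin 6} {c : Fin 5 → Fin 6}
  {τ : ℝ} {W : ℕ → ℝ → ℂ}

/-- an ultrafilter along the chords -/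
def F : Ultrafilter ℕ := Filter.hyperfilter ℕ

theorem F_le {p : ℕ → Prop} (h : ∀ᶠ m in atTop, p m) : ∀ᶠ m in (F : Filter ℕ), p m := by
  have h1 : (F : Filter ℕ) ≤ atTop := by
    rw [← Nat.cofinite_eq_atTop]
    exact Filter.hyperfilter_le_cofinite
  exact h1 h

theorem F_exists {n : ℕ} {p : Fin n → ℕ → Prop} (h : ∀ᶠ m in (F : Filter ℕ), ∃ i, p i m) :
    ∃ i, ∀ᶠ m in (F : Filter ℕ), p i m := by
  by_contra hcon
  rw [not_exists] at hcon
  have h1 : ∀ i, ∀ᶠ m in (F : Filter ℕ), ¬ p i m := fun i =>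
    Ultrafilter.eventually_not.2 (hcon i)
  have h2 : ∀ᶠ m in (F : Filter ℕ), ∀ i, ¬ p i m := eventually_all.2 h1
  obtain ⟨m, ⟨i, hi⟩, hm⟩ := (h.and h2).exists
  exact hm i hi

/-- the state at the time `u` -/
def SA (T : ℂ → Set (Fin 6)) (z : ℂ) (c : Fin 5 → Fin 6) (W : ℕ → ℝ → ℂ) (u : ℝ)
    (w : Fin 6 → Fin 6) (κ : Fin 2 → Fin 5) : Prop :=
  WA T z c u w ∧ ∀ a : Fin 2, ∀ᶠ m in (F : Filter ℕ), c (κ a) ∈ T (W m (u + ((pl2 a).val : ℝ)))

theorem pl2_le (a : Fin 2) : (0 : ℝ) ≤ ((pl2 a).val : ℝ) ∧ ((pl2 a).val : ℝ) ≤ 1 := by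
  have h : ∀ a : Fin 2, (pl2 a).val ≤ 1 := by decide
  exact ⟨Nat.cast_nonneg _, by exact_mod_cast h a⟩

theorem pl2_three (a : Fin 2) : (((pl2 a + 3 : Fin 6)).val : ℝ) = ((pl2 a).val : ℝ) + 3 := by
  have h : ∀ a : Fin 2, (pl2 a + 3 : Fin 6).val = (pl2 a).val + 3 := by decide
  rw [h a]; push_cast; ring

theorem exists_kap (L : Lab T z s c) (h : Irr U T) (H : Chd T z s τ W) {u : ℝ} (h1 : τ < u)
    (h2 : u < τ + 3) : ∃ x : Fin 5, ∀ᶠ m in (F : Filter ℕ), c x ∈ T (W m u) := by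
  refine F_exists (F_le ?_)
  filter_upwards [H.ev u u h1 h2 1 one_pos] with m hm
  obtain ⟨j, hj⟩ := h.ne (W m u)
  rcases L.cov j with rfl | ⟨k, rfl⟩
  · exact absurd hj (hm u ⟨le_rfl, le_rfl⟩).2.2.2
  · exact ⟨k, hj⟩

theorem exists_sa (C : Six6 U T z) (L : Lab T z s c) (H : Chd T z s τ W) {u : ℝ} (h1 : τ < u)
    (h2 : u < τ + 2) : ∃ w κ, SA T z c W u w κ := by
  obtain ⟨w, hw⟩ := exists_wa C L u
  have h3 : ∀ a : Fin 2, ∃ x : Fin 5, ∀ᶠ m in (F : Filter ℕ),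
      c x ∈ T (W m (u + ((pl2 a).val : ℝ))) := by
    intro a
    obtain ⟨h4, h5⟩ := pl2_le a
    exact exists_kap L C.irr H (by linarith) (by linarith)
  choose κ hκ using h3
  exact ⟨w, κ, hw, hκ⟩

/-- a carried colour is not on the chord, first neighbour -/
theorem not_carA (C : Six6 U T z) (H : Chd T z s τ W) {u : ℝ} (h1 : τ < u)
    (h2 : u < τ + 3) {t : Fin 6} (ht : ∀ᶠ v in 𝓝 u, t ∈ T (pt z v)) :
    ∀ᶠ m in atTop, t ∉ T (W m u) := by
  filter_upwards [H.ev u u h1 h2 1 one_pos] with m hm hcon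
  obtain ⟨hd, hne, hone, hs⟩ := hm u ⟨le_rfl, le_rfl⟩
  exact carried C.irr (dist_pt z u) (by rw [dist_comm]; exact hone) hne (by linarith)
    (ev_circle z ht) (C.irr.sub _ hcon)

/-- a carried colour is not on the chord, second neighbour -/
theorem not_carB (C : Six6 U T z) (H : Chd T z s τ W) {u : ℝ} (h1 : τ < u)
    (h2 : u < τ + 3) {t : Fin 6} (ht : ∀ᶠ v in 𝓝 (u + 3), t ∈ T (pt z v)) :
    ∀ᶠ m in atTop, t ∉ T (W m u) := by
  obtain ⟨V, hV, hVs⟩ := mem_nhdsWithin_iff_exists_mem_nhds_inter.1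
    (ev_circle z (p := fun q => t ∈ T q) ht)
  obtain ⟨r, hr, hrV⟩ := Metric.mem_nhds_iff.1 hV
  have hε : (0 : ℝ) < min (r / 2) 1 := by positivity
  filter_upwards [H.ev u u h1 h2 _ hε] with m hm hcon
  obtain ⟨hd, hne, hone, hs⟩ := hm u ⟨le_rfl, le_rfl⟩
  have hd1 : dist (W m u) z < r / 2 := lt_of_lt_of_le hd (min_le_left _ _)
  have hd2 : dist (W m u) z < 1 := lt_of_lt_of_le hd (min_le_right _ _)
  set q := W m u + z - pt z u with hq
  have hqd : dist q (pt z (u + 3)) < r / 2 := by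
    rw [pt_three]
    have h8 := mir3 (z := z) (w := W m u) (q := pt z u) (q0 := pt z u)
    rw [dist_self, add_zero] at h8
    linarith
  have hcar : ∀ᶠ q' in 𝓝[sphere z 1] q, t ∈ T q' := by
    filter_upwards [mem_nhdsWithin_of_mem_nhds (Metric.ball_mem_nhds q (half_pos hr)),
      self_mem_nhdsWithin] with q' k1 k2
    refine hVs ⟨hrV ?_, k2⟩
    rw [mem_ball] at k1 ⊢
    calc dist q' (pt z (u + 3)) ≤ dist q' q + dist q (pt z (u + 3)) := dist_triangle _ _ _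
      _ < r / 2 + r / 2 := by linarith
      _ = r := by ring
  exact carried C.irr (mir1 hone) (mir2 (dist_pt z u)) hne (by linarith) hcar
    (C.irr.sub _ hcon)

theorem st_of (C : Six6 U T z) (H : Chd T z s τ W) {u : ℝ} (h1 : τ < u) (h2 : u < τ + 2)
    (hu : Gn T z u) {w : Fin 6 → Fin 6} {κ : Fin 2 → Fin 5} (hS : SA T z c W u w κ) :
    St2 w κ := by
  refine ⟨leg_of C hu hS.1, fun a => ⟨fun hin => ?_, fun hin => ?_⟩⟩
  · obtain ⟨h4, h5⟩ := pl2_le a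
    have h6 := hS.1 (pl2 a) (κ a) hin
    have h7 : ∀ᶠ v in 𝓝 (u + ((pl2 a).val : ℝ)), c (κ a) ∈ T (pt z v) :=
      (hu (pl2 a)).mono fun v hv => by rw [hv]; exact h6
    obtain ⟨m, hm1, hm2⟩ := ((hS.2 a).and
      (F_le (not_carA C H (by linarith) (by linarith) h7))).exists
    exact hm2 hm1
  · obtain ⟨h4, h5⟩ := pl2_le a
    have h6 := hS.1 (pl2 a + 3) (κ a) hin
    have h8 := hu (pl2 a + 3)
    have e : u + (((pl2 a + 3 : Fin 6)).val : ℝ) = u + ((pl2 a).val : ℝ) + 3 := by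
      rw [pl2_three]; ring
    rw [e] at h6 h8
    have h7 : ∀ᶠ v in 𝓝 (u + ((pl2 a).val : ℝ) + 3), c (κ a) ∈ T (pt z v) :=
      h8.mono fun v hv => by rw [hv]; exact h6
    obtain ⟨m, hm1, hm2⟩ := ((hS.2 a).and
      (F_le (not_carB C H (by linarith) (by linarith) h7))).exists
    exact hm2 hm1

/-- **the step relation near one instant** -/
theorem local_step (C : Six6 U T z) (L : Lab T z s c)
    (hmin : ∀ z, 4 ≤ (T z).ncard → ∀ s, s ⊆ T z → s ≠ T z →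
      ¬ ∀ᶠ w in 𝓝 z, ∃ i ∈ s, w ∈ U i ∨ (w ∈ XX U ∧ i ∈ Pal U w))
    (h5 : ∀ᶠ w in 𝓝 z, w ≠ z → s ∉ T w → (T w).ncard ≠ 5) (H : Chd T z s τ W) {t₀ : ℝ}
    (h1 : τ < t₀) (h2 : t₀ < τ + 2) :
    ∃ η > 0, ∀ u v, |u - t₀| < η → |v - t₀| < η → ∀ w w' κ κ', SA T z c W u w κ →
      SA T z c W v w' κ' → Nb w w' ∧ ∀ a, Dir2 w w' κ κ' a := by
  obtain ⟨η1, hη1, hb1⟩ := Metric.eventually_nhds_iff.1 (near_all C t₀)
  have h3 : ∀ a : Fin 2, ∃ η > 0, ∀ u' u'', |u' - (t₀ + ((pl2 a).val : ℝ))| < η →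
      |u'' - (t₀ + ((pl2 a).val : ℝ))| < η → ∀ᶠ m in atTop, ∀ x y : Fin 5,
      c x ∈ T (W m u') → c y ∈ T (W m u'') → ∀ K : Finset (Fin 5),
        (∀ i : Fin 5, (∃ l : Fin 6, (lm l).land (ct i) = 0 ∧ ∀ x, inm x (lm l) →
            c x ∈ T (pt z (t₀ + ((pl2 a).val : ℝ)))) →
          (∃ l : Fin 6, (lm l).land (ct i) = 0 ∧ ∀ x, inm x (lm l) →
            c x ∈ T (pt z (t₀ + ((pl2 a).val : ℝ) + 3))) →
          (i ∈ K ↔ i + 1 ∈ K)) → x ∈ K → y ∈ K := by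
    intro a
    obtain ⟨h4, h5'⟩ := pl2_le a
    exact conn C L hmin h5 H (by linarith) (by linarith)
  choose η hη hconn using h3
  set η' : ℝ := min η1 (min (η 0) (η 1)) with hη'
  have hη0 : 0 < η' := lt_min hη1 (lt_min (hη 0) (hη 1))
  have hle : ∀ a : Fin 2, η' ≤ η a := by
    intro a
    fin_cases a
    · exact (min_le_right _ _).trans (min_le_left _ _)
    · exact (min_le_right _ _).trans (min_le_right _ _)
  refine ⟨η', hη0, fun u v hu hv w w' κ κ' hS hS' => ?_⟩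
  have hu1 := hb1 (y := u) (by rw [Real.dist_eq]; exact lt_of_lt_of_le hu (min_le_left _ _))
  have hv1 := hb1 (y := v) (by rw [Real.dist_eq]; exact lt_of_lt_of_le hv (min_le_left _ _))
  refine ⟨nb_of C L hu1 hv1 hS.1 hS'.1, fun a => ?_⟩
  intro K hK hκ
  have e1 : |u + ((pl2 a).val : ℝ) - (t₀ + ((pl2 a).val : ℝ))| < η a := by
    rw [add_sub_add_right_eq_sub]; exact lt_of_lt_of_le hu (hle a)
  have e2 : |v + ((pl2 a).val : ℝ) - (t₀ + ((pl2 a).val : ℝ))| < η a := by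
    rw [add_sub_add_right_eq_sub]; exact lt_of_lt_of_le hv (hle a)
  obtain ⟨m, ⟨hm1, hm2⟩, hm3⟩ := (((hS.2 a).and (hS'.2 a)).and
    (F_le (hconn a _ _ e1 e2))).exists
  refine hm3 (κ a) (κ' a) hm1 hm2 K (fun i hi hi' => hK i ?_ ?_) hκ
  · obtain ⟨l, hl1, hl2⟩ := hi
    refine ⟨l, hl1, ?_⟩
    refine (mask_card L.inj (lt32' _ _ _) (P := T (pt z (t₀ + ((pl2 a).val : ℝ)))) ?_).trans
      (C.clean _ (dist_pt z _))
    intro x hx
    rcases (inm_lor x _ _).1 hx with h6 | h6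
    · exact hl2 x h6
    · rcases (inm_lor x _ _).1 h6 with h7 | h7
      · exact hu1 (pl2 a) (hS.1 (pl2 a) x h7)
      · exact hv1 (pl2 a) (hS'.1 (pl2 a) x h7)
  · obtain ⟨l, hl1, hl2⟩ := hi'
    refine ⟨l, hl1, ?_⟩
    refine (mask_card L.inj (lt32' _ _ _) (P := T (pt z (t₀ + ((pl2 a).val : ℝ) + 3))) ?_).trans
      (C.clean _ (dist_pt z _))
    have e : t₀ + ((pl2 a).val : ℝ) + 3 = t₀ + (((pl2 a + 3 : Fin 6)).val : ℝ) := by
      rw [pl2_three]; ring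
    intro x hx
    rcases (inm_lor x _ _).1 hx with h6 | h6
    · exact hl2 x h6
    · rw [e]
      rcases (inm_lor x _ _).1 h6 with h7 | h7
      · exact hu1 (pl2 a + 3) (hS.1 (pl2 a + 3) x h7)
      · exact hv1 (pl2 a + 3) (hS'.1 (pl2 a + 3) x h7)

end Vale.Agent.P032.R2.H962
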