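import Vale.Agent.P032.Words6.H704.Gen6
import Vale.Agent.P032.S5.H360.Degree
import Vale.Agent.P032.R2.H962.SilDefs

/-!
# P032: points near a clean six-coloured point with a silent colour

`z` has six colours, the palettes of its unit circle have at most three colours, `s` is in no pair of
the circle, the other colours are `c 0, .., c 4` and the pairs `{c (m - 1), c (m + 1)}` are broken.
A point `w` near `z` without the colour `s` has one colour or a contact `{c i, c (i + 1)}`; at a
contact the two common neighbours of `w` and `z` have letters disjoint from the contact.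
-/

set_option autoImplicit false

open Set Filter Topology Metric

noncomputable section

namespace Vale.Agent.P032.R2.H962

open Vale.Agent.P032.Six Vale.Agent.P032.S5.H767 Vale.Agent.P032.Words6.H704

variable {U : Fin 6 → Set ℂ} {T : ℂ → Set (Fin 6)} {z : ℂ}

/-- the labels of the active colours -/
structure Lab (T : ℂ → Set (Fin 6)) (z : ℂ) (s : Fin 6) (c : Fin 5 → Fin 6) : Prop where
  inj : Function.Injective c
  ne : ∀ m, c m ≠ s
  cov : ∀ j, j = s ∨ ∃ m, c m = j
  mc : ∀ m : Fin 5, MC T z (c (m + 4)) (c (m + 1))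
  pen : ∀ a b, MC T z a b → ∃ l : Fin 6, ∀ x : Fin 5, inm x (lm l) ↔ (c x = a ∨ c x = b)

theorem transp (h : Irr U T) {x y : Fin 6} (hM : MC T z x y) :
    ∀ᶠ w in 𝓝 z, x ∈ T w → y ∈ T w → ∃ q, dist q w = 1 ∧ T q = {x, y} := by
  obtain ⟨hxy, q, hq, hT⟩ := hM
  have h1 : Tendsto (fun w => q + (w - z)) (𝓝 z) (𝓝 q) := by
    have : Continuous fun w : ℂ => q + (w - z) := by fun_prop
    have h2 := this.tendsto z
    simpa using h2
  filter_upwards [h1.eventually (h.nhd q)] with w hw hx hy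
  rw [hT] at hw
  have hd : dist (q + (w - z)) w = 1 := by
    rw [dist_eq_norm] at hq ⊢
    rw [← hq]; congr 1; ring
  refine ⟨q + (w - z), hd, Subset.antisymm hw ?_⟩
  by_contra hcon
  rcases not_subset.1 hcon with ⟨i, hi, hni⟩
  rcases hi with rfl | hi
  · have h3 : T (q + (w - z)) ⊆ {y} := by
      intro j hj
      rcases hw hj with rfl | h4
      · exact absurd hj hni
      · exact h4
    exact h.mx.notMem' (h.mem_of_single h3) hd (h.sub w hy)
  · have hi : i = y := hi
    subst hi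
    have h3 : T (q + (w - z)) ⊆ {x} := by
      intro j hj
      rcases hw hj with h4 | h4
      · exact h4
      · have h4 : j = i := h4
        exact absurd (h4 ▸ hj) hni
    exact h.mx.notMem' (h.mem_of_single h3) hd (h.sub w hx)

theorem nolet (h : Irr U T) {x y : Fin 6} (hM : MC T z x y) :
    ∀ᶠ w in 𝓝 z, x ∈ T w → y ∈ T w → 4 ≤ (T w).ncard := by
  obtain ⟨hxy, q, hq, hT⟩ := hM
  filter_upwards [h.no_layer hq] with w hw hx hy
  refine hw ?_
  rw [hT]
  rintro i (rfl | hi)
  · exact hx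
  · have hi : i = y := hi
    exact hi ▸ hy

/-- five numbers -/
theorem ncard_range {c : Fin 5 → Fin 6} (hc : Function.Injective c) : (range c).ncard = 5 := by
  rw [← image_univ, Set.ncard_image_of_injective _ hc, Set.ncard_univ, Nat.card_eq_fintype_card,
    Fintype.card_fin]

/-- **points near `z` without the silent colour** -/
theorem Lab.small {s : Fin 6} {c : Fin 5 → Fin 6} (L : Lab T z s c) (h : Irr U T)
    (hmin : ∀ z, 4 ≤ (T z).ncard → ∀ s, s ⊆ T z → s ≠ T z →
      ¬ ∀ᶠ w in 𝓝 z, ∃ i ∈ s, w ∈ U i ∨ (w ∈ XX U ∧ i ∈ Pal U w)) :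
    ∀ᶠ w in 𝓝 z, s ∉ T w → (T w).ncard ≠ 5 → ∀ a b : Fin 5, a ≠ b → c a ∈ T w → c b ∈ T w →
      (b = a + 1 ∨ a = b + 1) ∧ T w = {c a, c b} := by
  have e1 : ∀ᶠ w in 𝓝 z, ∀ m : Fin 5, c (m + 4) ∈ T w → c (m + 1) ∈ T w →
      ∃ q, dist q w = 1 ∧ T q = {c (m + 4), c (m + 1)} :=
    eventually_all.2 fun m => transp h (L.mc m)
  have e2 : ∀ᶠ w in 𝓝 z, ∀ m : Fin 5, c (m + 4) ∈ T w → c (m + 1) ∈ T w → 4 ≤ (T w).ncard :=
    eventually_all.2 fun m => nolet h (L.mc m)
  filter_upwards [e1, e2] with w h1 h2 hs h5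
  have hsub : T w ⊆ range c := by
    intro j hj
    rcases L.cov j with rfl | ⟨m, rfl⟩
    · exact absurd hj hs
    · exact ⟨m, rfl⟩
  have hle := Set.ncard_le_ncard hsub (Set.toFinite _)
  rw [ncard_range L.inj] at hle
  -- no letter
  have key : ∀ m : Fin 5, c (m + 4) ∈ T w → c (m + 1) ∈ T w → False := by
    intro m ha hb
    have h4 : (T w).ncard = 4 := by
      have := h2 m ha hb
      omega
    -- the missing colour
    obtain ⟨k, hk⟩ : ∃ k, c k ∉ T w := by
      by_contra hcon
      push Not at hcon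
      have h6 : range c ⊆ T w := by rintro _ ⟨k, rfl⟩; exact hcon k
      have := Set.ncard_le_ncard h6 (Set.toFinite _)
      rw [ncard_range L.inj] at this
      omega
    have hoth : ∀ j, j ≠ k → c j ∈ T w := by
      intro j hj
      by_contra hcon
      have h6 : T w ⊆ range c \ {c k, c j} := by
        intro i hi
        refine ⟨hsub hi, ?_⟩
        rintro (rfl | hi')
        · exact hk hi
        · have hi' : i = c j := hi'
          exact hcon (hi' ▸ hi)
      have h7 := Set.ncard_le_ncard h6 (Set.toFinite _)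
      have h8 : (range c \ {c k, c j}).ncard = 3 := by
        rw [Set.ncard_sdiff _ (Set.toFinite _), ncard_range L.inj,
          Set.ncard_pair (fun h => hj (L.inj h).symm)]
        rintro i (rfl | hi)
        · exact ⟨k, rfl⟩
        · have hi : i = c j := hi
          exact ⟨j, hi.symm⟩
      omega
    have n1 : ∀ k : Fin 5, (k + 1 ≠ k ∧ k + 3 ≠ k ∧ k + 4 ≠ k) := by decide
    obtain ⟨m1, m3, m4⟩ := n1 k
    obtain ⟨q1, hq1, hT1⟩ := h1 k (hoth _ m4) (hoth _ m1)
    have ea : ∀ k : Fin 5, k + 2 + 4 = k + 1 ∧ k + 2 + 1 = k + 3 := by decide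
    obtain ⟨q2, hq2, hT2⟩ := h1 (k + 2) (by rw [(ea k).1]; exact hoth _ m1)
      (by rw [(ea k).2]; exact hoth _ m3)
    rw [(ea k).1, (ea k).2] at hT2
    have ne14 : c (k + 4) ≠ c (k + 1) := fun h => by
      have := L.inj h
      revert this; clear * -; revert k; decide
    have ne13 : c (k + 1) ≠ c (k + 3) := fun h => by
      have := L.inj h
      revert this; clear * -; revert k; decide
    have ne34 : c (k + 3) ≠ c (k + 4) := fun h => by
      have := L.inj h
      revert this; clear * -; revert k; decide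
    have s1 : T q1 ⊆ T w := by
      rw [hT1]
      rintro i (rfl | hi)
      · exact hoth _ m4
      · have hi : i = c (k + 1) := hi
        exact hi ▸ hoth _ m1
    have s2 : T q2 ⊆ T w := by
      rw [hT2]
      rintro i (rfl | hi)
      · exact hoth _ m1
      · have hi : i = c (k + 3) := hi
        exact hi ▸ hoth _ m3
    rcases h.pairs_disjoint hmin h4 hq1 hq2 s1 s2 (by rw [hT1]; exact Set.ncard_pair ne14)
      (by rw [hT2]; exact Set.ncard_pair ne13) with h9 | h9
    · have h10 : c (k + 3) ∈ T q1 := by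
        rw [h9, hT2]; exact Or.inr rfl
      rw [hT1] at h10
      rcases h10 with h11 | h11
      · exact ne34 h11
      · exact ne13 h11.symm
    · have h10 : c (k + 1) ∈ T q1 := by rw [hT1]; exact Or.inr rfl
      have h11 : c (k + 1) ∈ T q2 := by rw [hT2]; exact Or.inl rfl
      exact Set.disjoint_left.1 h9 h10 h11
  have adj : ∀ a b : Fin 5, a ≠ b → c a ∈ T w → c b ∈ T w → (b = a + 1 ∨ a = b + 1) := by
    intro a b hab ha hb
    by_contra hcon
    have h6 : ∀ a b : Fin 5, a ≠ b → ¬ (b = a + 1 ∨ a = b + 1) →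
        ∃ m : Fin 5, (a = m + 4 ∧ b = m + 1) ∨ (b = m + 4 ∧ a = m + 1) := by decide
    obtain ⟨m, ⟨rfl, rfl⟩ | ⟨rfl, rfl⟩⟩ := h6 a b hab hcon
    · exact key m ha hb
    · exact key m hb ha
  intro a b hab ha hb
  refine ⟨adj a b hab ha hb, Subset.antisymm ?_ ?_⟩
  · intro i hi
    obtain ⟨d, rfl⟩ := hsub hi
    by_contra hcon
    have hda : d ≠ a := fun h => hcon (Or.inl (by rw [h]))
    have hdb : d ≠ b := fun h => hcon (Or.inr (by rw [h]; rfl))
    have h7 := adj a b hab ha hb
    have h8 := adj a d hda.symm ha hi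
    have h9 := adj b d hdb.symm hb hi
    have h10 : ∀ a b d : Fin 5, (b = a + 1 ∨ a = b + 1) → (d = a + 1 ∨ a = d + 1) →
        (d = b + 1 ∨ b = d + 1) → d = a ∨ d = b := by decide
    rcases h10 a b d h7 h8 h9 with h | h
    · exact hda h
    · exact hdb h
  · rintro i (rfl | hi)
    · exact ha
    · have hi : i = c b := hi
      exact hi ▸ hb

/-- a colour carried by the circle of `z` near `q` is not at `w` -/
theorem carried (h : Irr U T) {q w : ℂ} {t : Fin 6} (hq : dist q z = 1) (hw : dist q w = 1)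
    (hwz : w ≠ z) (hnear : dist w z < 2) (ht : ∀ᶠ q' in 𝓝[sphere z 1] q, t ∈ T q') :
    t ∉ Pal U w := by
  intro htw
  rcases h.mx.partner_line hq (ht.mono fun q' hq' => h.sub q' hq') hw htw with h1 | h1
  · exact hwz h1
  · have h2 : w - z = 2 * (q - z) := by linear_combination h1
    have h3 : dist w z = 2 := by
      rw [dist_eq_norm] at hq ⊢
      rw [h2, norm_mul, hq]
      simp
    linarith

/-- **the letters at a contact** -/
theorem contact (C : Six6 U T z) {q w : ℂ} {i j : Fin 6} (hq : dist q z = 1) (hw : dist q w = 1)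
    (hwz : w ≠ z) (hnear : dist w z < 2) (hT : T w = {i, j}) :
    ∃ x y, MC T z x y ∧ x ∈ T q ∧ y ∈ T q ∧ i ≠ x ∧ i ≠ y ∧ j ≠ x ∧ j ≠ y := by
  have h := C.irr
  have hi : i ∈ T w := by rw [hT]; exact Or.inl rfl
  have hj : j ∈ T w := by rw [hT]; exact Or.inr rfl
  -- a letter inside a set without `i`, `j`
  have fin : ∀ q', dist q' z = 1 → T q' ⊆ T q → i ∉ T q' → j ∉ T q' →
      ∃ x y, MC T z x y ∧ x ∈ T q ∧ y ∈ T q ∧ i ≠ x ∧ i ≠ y ∧ j ≠ x ∧ j ≠ y := by
    intro q' hq' hs h1 h2
    obtain ⟨x, y, hxy, hsub⟩ := C.sub_pair hq'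
    have hx : x ∈ T q' := hsub (Or.inl rfl)
    have hy : y ∈ T q' := hsub (Or.inr rfl)
    exact ⟨x, y, hxy, hs hx, hs hy, fun e => h1 (e ▸ hx), fun e => h1 (e ▸ hy),
      fun e => h2 (e ▸ hx), fun e => h2 (e ▸ hy)⟩
  -- not both colours are in `T q`
  have hns : ¬ (i ∈ T q ∧ j ∈ T q) := by
    rintro ⟨h1, h2⟩
    refine h.not_sub (x := q) (y := w) (by rw [dist_comm]; exact hw) (C.clean q hq) ?_
    rw [hT]
    rintro k (rfl | hk)
    · exact h1
    · have hk : k = j := hk
      exact hk ▸ h2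
  -- the case of one colour
  have one : ∀ i j : Fin 6, i ∈ T w → i ∈ T q → j ∉ T q →
      ∃ q', dist q' z = 1 ∧ T q' ⊆ T q ∧ i ∉ T q' ∧ j ∉ T q' := by
    intro i j hi hiq hjq
    by_contra hcon
    push Not at hcon
    have h1 : ∀ᶠ q' in 𝓝[sphere z 1] q, i ∈ T q' := by
      filter_upwards [mem_nhdsWithin_of_mem_nhds (h.nhd q), self_mem_nhdsWithin] with q' k1 k2
      by_contra k3
      exact hjq (k1 (hcon q' k2 k1 k3))
    exact carried h hq hw hwz hnear h1 (h.sub w hi)
  by_cases hiq : i ∈ T q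
  · have hjq : j ∉ T q := fun h2 => hns ⟨hiq, h2⟩
    obtain ⟨q', h1, h2, h3, h4⟩ := one i j hi hiq hjq
    exact fin q' h1 h2 h3 h4
  · by_cases hjq : j ∈ T q
    · obtain ⟨q', h1, h2, h3, h4⟩ := one j i hj hjq hiq
      exact fin q' h1 h2 h4 h3
    · exact fin q hq Subset.rfl hiq hjq

end Vale.Agent.P032.R2.H962
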