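import Vale.Agent.P032.R2.H962.SilLoc
import Vale.Agent.P032.R2.H962.SilDefs2

/-!
# P032: the colours on an `s`-free chord near one instant
-/

set_option autoImplicit false

open Set Filter Topology Metric

noncomputable section

namespace Vale.Agent.P032.R2.H962

open Vale.Agent.P032.Six Vale.Agent.P032.S5.H767 Vale.Agent.P032.Words6.H704

variable {U : Fin 6 → Set ℂ} {T : ℂ → Set (Fin 6)} {z : ℂ} {s : Fin 6} {c : Fin 5 → Fin 6}
  {τ : ℝ} {W : ℕ → ℝ → ℂ}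

/-! ### masks -/

theorem inm_lor (x : Fin 5) (m n : ℕ) : inm x (m.lor n) ↔ inm x m ∨ inm x n := by
  unfold inm
  have h : (m.lor n).testBit x.val = (m.testBit x.val || n.testBit x.val) := Nat.testBit_or m n x.val
  rw [h, Bool.or_eq_true]

theorem inm_land (x : Fin 5) (m n : ℕ) : inm x (m.land n) ↔ inm x m ∧ inm x n := by
  unfold inm
  have h : (m.land n).testBit x.val = (m.testBit x.val && n.testBit x.val) :=
    Nat.testBit_and m n x.val
  rw [h, Bool.and_eq_true]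

theorem pc_card : ∀ n < 32, pc n =
    (Finset.univ.filter fun x : Fin 5 => n.testBit x.val = true).card := by decide +kernel

theorem mask_card (hc : Function.Injective c) {n : ℕ} (hn : n < 32) {P : Set (Fin 6)}
    (h : ∀ x, inm x n → c x ∈ P) : pc n ≤ P.ncard := by
  classical
  rw [pc_card n hn, ← Finset.card_image_of_injective _ hc, ← Set.ncard_coe_finset]
  refine Set.ncard_le_ncard ?_ (Set.toFinite _)
  intro y hy
  rw [Finset.mem_coe, Finset.mem_image] at hy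
  obtain ⟨x, hx, rfl⟩ := hy
  exact h x (Finset.mem_filter.1 hx).2

theorem lt32 : ∀ a b : Fin 6, (lm a).lor (lm b) < 32 := by decide +kernel

theorem lt32' : ∀ a b d : Fin 6, (lm a).lor ((lm b).lor (lm d)) < 32 := by decide +kernel

theorem lt32'' : ∀ a b d e : Fin 6, ((lm a).lor (lm b)).land ((lm d).lor (lm e)) < 32 := by
  decide +kernel

theorem land_zero : ∀ a b : Fin 6, (∀ x : Fin 5, (lm a).testBit x.val = true →
    (lm b).testBit x.val = true → False) → (lm a).land (lm b) = 0 := by decide +kernel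

theorem land_ct : ∀ (l : Fin 6) (i : Fin 5), (∀ x : Fin 5, (lm l).testBit x.val = true →
    x ≠ i ∧ x ≠ i + 1) → (lm l).land (ct i) = 0 := by decide +kernel

/-! ### neighbours -/

theorem nb1 (C : Six6 U T z) (u : ℝ) : (T (pt z u) ∩ T (pt z (u + 1))).ncard ≤ 1 := by
  by_contra hcon
  have h := C.irr
  have hpq := dist_pt_one z u
  have hp := dist_pt z u
  have hq := dist_pt z (u + 1)
  obtain ⟨k1, k2⟩ := S5.H767.tri hp hq
  have h1 := C.clean _ hp
  have h2 : (T (pt z u) \ T (pt z (u + 1))).ncard ≤ 1 := by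
    have h3 := Set.ncard_inter_add_ncard_sdiff_eq_ncard (T (pt z u)) (T (pt z (u + 1)))
      (Set.toFinite _)
    omega
  obtain ⟨t, ht, htn⟩ := h.not_sub' (x := pt z (u + 1)) (y := pt z u) hpq (C.clean _ hq)
  have hsub : T (pt z u) ⊆ insert t (T (pt z (u + 1))) := by
    intro i hi
    by_cases hi' : i ∈ T (pt z (u + 1))
    · exact Or.inr hi'
    · left
      exact (Set.ncard_le_one (Set.toFinite _)).1 h2 i ⟨hi, hi'⟩ t ⟨ht, htn⟩
  rcases h.lemmaX (u := pt z (u + 1)) (p := pt z u) (v := z) hpq (C.clean _ hq) hsub hp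
    (h.sub _ (C.all t)) with h3 | h3
  · rw [← h3, dist_self] at hq
    exact zero_ne_one hq
  · exact k2 (by rw [← h3])

/-! ### words -/

/-- the word `w` is possible at the time `u` -/
def WA (T : ℂ → Set (Fin 6)) (z : ℂ) (c : Fin 5 → Fin 6) (u : ℝ) (w : Fin 6 → Fin 6) : Prop :=
  ∀ (k : Fin 6) (x : Fin 5), inm x (lm (w k)) → c x ∈ T (pt z (u + (k.val : ℝ)))

theorem exists_wa (C : Six6 U T z) (L : Lab T z s c) (u : ℝ) : ∃ w, WA T z c u w := by
  have h1 : ∀ k : Fin 6, ∃ l : Fin 6, ∀ x : Fin 5, inm x (lm l) →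
      c x ∈ T (pt z (u + (k.val : ℝ))) := by
    intro k
    obtain ⟨a, b, hab, hsub⟩ := C.sub_pair (dist_pt z (u + (k.val : ℝ)))
    obtain ⟨l, hl⟩ := L.pen a b hab
    refine ⟨l, fun x hx => ?_⟩
    rcases (hl x).1 hx with h2 | h2
    · rw [h2]; exact hsub (Or.inl rfl)
    · rw [h2]; exact hsub (Or.inr rfl)
  choose w hw using h1
  exact ⟨w, hw⟩

theorem leg_of (C : Six6 U T z) {u : ℝ} (hu : Gn T z u) {w : Fin 6 → Fin 6}
    (hw : WA T z c u w) : Leg w := by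
  intro k
  have h1 := C.disj (hu k)
  rw [← pt_fin] at h1
  refine land_zero _ _ fun x h2 h3 => ?_
  exact Set.disjoint_left.1 h1 (hw k x h2) (hw (k + 1) x h3)

theorem near_all (C : Six6 U T z) (t₀ : ℝ) : ∀ᶠ u in 𝓝 t₀, ∀ k : Fin 6,
    T (pt z (u + (k.val : ℝ))) ⊆ T (pt z (t₀ + (k.val : ℝ))) := by
  rw [eventually_all]
  intro k
  have hc : Continuous fun v : ℝ => pt z (v + (k.val : ℝ)) :=
    (continuous_pt z).comp (by fun_prop)
  exact (hc.tendsto t₀).eventually (C.irr.nhd _)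

theorem nb_of (C : Six6 U T z) (L : Lab T z s c) {t₀ u v : ℝ} {w w' : Fin 6 → Fin 6}
    (hu : ∀ k : Fin 6, T (pt z (u + (k.val : ℝ))) ⊆ T (pt z (t₀ + (k.val : ℝ))))
    (hv : ∀ k : Fin 6, T (pt z (v + (k.val : ℝ))) ⊆ T (pt z (t₀ + (k.val : ℝ))))
    (hw : WA T z c u w) (hw' : WA T z c v w') : Nb w w' := by
  have key : ∀ (k : Fin 6) (x : Fin 5), inm x (un w w' k) →
      c x ∈ T (pt z (t₀ + (k.val : ℝ))) := by
    intro k x hx
    rcases (inm_lor x _ _).1 hx with h1 | h1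
    · exact hu k (hw k x h1)
    · exact hv k (hw' k x h1)
  refine ⟨fun k => ?_, fun k _ _ => ?_⟩
  · exact (mask_card L.inj (lt32 _ _) (key k)).trans (C.clean _ (dist_pt z _))
  · refine (mask_card L.inj (lt32'' _ _ _ _)
      (P := T (pt z (t₀ + (k.val : ℝ))) ∩ T (pt z (t₀ + (k.val : ℝ) + 1))) ?_).trans
      (nb1 C (t₀ + (k.val : ℝ)))
    intro x hx
    obtain ⟨h1, h2⟩ := (inm_land x _ _).1 hx
    refine ⟨key k x h1, ?_⟩
    have h3 := key (k + 1) x h2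
    rwa [pt_fin] at h3

/-! ### the chord -/

/-- the points of the chords -/
structure Chd (T : ℂ → Set (Fin 6)) (z : ℂ) (s : Fin 6) (τ : ℝ) (W : ℕ → ℝ → ℂ) : Prop where
  cont : ∀ m, Continuous (W m)
  ev : ∀ a b, τ < a → b < τ + 3 → ∀ ε > 0, ∀ᶠ m in atTop, ∀ u ∈ Icc a b,
    dist (W m u) z < ε ∧ W m u ≠ z ∧ dist (W m u) (pt z u) = 1 ∧ s ∉ T (W m u)

theorem mir1 {w q : ℂ} (h : dist w q = 1) : dist (w + z - q) z = 1 := by
  rw [dist_eq_norm] at h ⊢
  rw [← h]; congr 1; ring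

theorem mir2 {w q : ℂ} (h : dist q z = 1) : dist (w + z - q) w = 1 := by
  rw [dist_eq_norm] at h ⊢
  rw [← norm_neg, ← h]; congr 1; ring

theorem mir3 {w q q0 : ℂ} : dist (w + z - q) (2 * z - q0) ≤ dist w z + dist q q0 := by
  rw [dist_eq_norm, dist_eq_norm, dist_eq_norm]
  have h : w + z - q - (2 * z - q0) = (w - z) - (q - q0) := by ring
  rw [h]
  exact norm_sub_le _ _

/-- the letters at a contact, with labels -/
theorem contact_let (C : Six6 U T z) (L : Lab T z s c) {q w : ℂ} {i : Fin 5} (hq : dist q z = 1)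
    (hw : dist q w = 1) (hwz : w ≠ z) (hnear : dist w z < 2) (hT : T w = {c i, c (i + 1)}) :
    ∃ l : Fin 6, (lm l).land (ct i) = 0 ∧ ∀ x, inm x (lm l) → c x ∈ T q := by
  obtain ⟨x, y, hxy, hx, hy, h1, h2, h3, h4⟩ := contact C hq hw hwz hnear hT
  obtain ⟨l, hl⟩ := L.pen x y hxy
  refine ⟨l, land_ct l i fun k hk => ?_, fun k hk => ?_⟩
  · rcases (hl k).1 hk with h5 | h5
    · exact ⟨fun e => h1 (by rw [← h5, e]), fun e => h3 (by rw [← h5, e])⟩
    · exact ⟨fun e => h2 (by rw [← h5, e]), fun e => h4 (by rw [← h5, e])⟩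
  · rcases (hl k).1 hk with h5 | h5
    · rw [h5]; exact hx
    · rw [h5]; exact hy

/-- **the colours of the chord near one direction** -/
theorem conn (C : Six6 U T z) (L : Lab T z s c)
    (hmin : ∀ z, 4 ≤ (T z).ncard → ∀ s, s ⊆ T z → s ≠ T z →
      ¬ ∀ᶠ w in 𝓝 z, ∃ i ∈ s, w ∈ U i ∨ (w ∈ XX U ∧ i ∈ Pal U w))
    (h5 : ∀ᶠ w in 𝓝 z, w ≠ z → s ∉ T w → (T w).ncard ≠ 5) (H : Chd T z s τ W) {t₀ : ℝ}
    (h1 : τ < t₀) (h2 : t₀ < τ + 3) :
    ∃ η > 0, ∀ u' u'', |u' - t₀| < η → |u'' - t₀| < η → ∀ᶠ m in atTop, ∀ x y : Fin 5,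
      c x ∈ T (W m u') → c y ∈ T (W m u'') → ∀ K : Finset (Fin 5),
        (∀ i : Fin 5, (∃ l : Fin 6, (lm l).land (ct i) = 0 ∧ ∀ x, inm x (lm l) →
            c x ∈ T (pt z t₀)) →
          (∃ l : Fin 6, (lm l).land (ct i) = 0 ∧ ∀ x, inm x (lm l) → c x ∈ T (pt z (t₀ + 3))) →
          (i ∈ K ↔ i + 1 ∈ K)) → x ∈ K → y ∈ K := by
  have h := C.irr
  obtain ⟨ε0, hε0, hb0⟩ := Metric.eventually_nhds_iff.1 ((L.small h hmin).and h5)
  obtain ⟨ρ1, hρ1, hb1⟩ := Metric.eventually_nhds_iff.1 (h.nhd (pt z t₀))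
  obtain ⟨ρ2, hρ2, hb2⟩ := Metric.eventually_nhds_iff.1 (h.nhd (pt z (t₀ + 3)))
  obtain ⟨η1, hη1, hbη⟩ := Metric.eventually_nhds_iff.1
    (((continuous_pt z).tendsto t₀).eventually (Metric.ball_mem_nhds (pt z t₀)
      (show 0 < min ρ1 (ρ2 / 2) by positivity)))
  set η : ℝ := min η1 (min ((t₀ - τ) / 2) ((τ + 3 - t₀) / 2)) with hη
  have hη0 : 0 < η := by
    refine lt_min hη1 (lt_min ?_ ?_) <;> linarith
  have hηa : η ≤ (t₀ - τ) / 2 := (min_le_right _ _).trans (min_le_left _ _)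
  have hηb : η ≤ (τ + 3 - t₀) / 2 := (min_le_right _ _).trans (min_le_right _ _)
  have hη1' : η ≤ η1 := min_le_left _ _
  refine ⟨η, hη0, fun u' u'' hu' hu'' => ?_⟩
  have hε : (0 : ℝ) < min ε0 (min (ρ2 / 2) 1) := by positivity
  filter_upwards [H.ev (t₀ - η) (t₀ + η) (by linarith) (by linarith) _ hε] with m hm x y hx hy K hK
    hxK
  by_contra hyK
  -- the two closed sets
  set A : Set ℝ := {v | ∃ a ∈ K, c a ∈ T (W m v)} with hA
  set B : Set ℝ := {v | ∃ b, b ∉ K ∧ c b ∈ T (W m v)} with hB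
  have hcl : ∀ a : Fin 5, IsClosed {v : ℝ | c a ∈ T (W m v)} := fun a =>
    (h.closed (c a)).preimage (H.cont m)
  have hAc : IsClosed A := by
    have e : A = ⋃ a ∈ K, {v : ℝ | c a ∈ T (W m v)} := by
      ext v; simp [hA]
    rw [e]
    exact K.finite_toSet.isClosed_biUnion fun a _ => hcl a
  have hBc : IsClosed B := by
    have e : B = ⋃ a ∈ ({a | a ∉ K} : Set (Fin 5)), {v : ℝ | c a ∈ T (W m v)} := by
      ext v; simp [hB]
    rw [e]
    exact (Set.toFinite _).isClosed_biUnion fun a _ => hcl a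
  have hin : ∀ v ∈ uIcc u' u'', v ∈ Icc (t₀ - η) (t₀ + η) := by
    intro v hv
    have h3 := abs_lt.1 hu'
    have h4 := abs_lt.1 hu''
    rcases le_total u' u'' with h5 | h5
    · rw [uIcc_of_le h5] at hv
      exact ⟨by linarith [hv.1], by linarith [hv.2]⟩
    · rw [uIcc_of_ge h5] at hv
      exact ⟨by linarith [hv.1], by linarith [hv.2]⟩
  have hin' : ∀ v ∈ uIcc u' u'', |v - t₀| < η := by
    intro v hv
    have h3 := abs_lt.1 hu'
    have h4 := abs_lt.1 hu''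
    rw [abs_lt]
    rcases le_total u' u'' with h5 | h5
    · rw [uIcc_of_le h5] at hv
      exact ⟨by linarith [hv.1], by linarith [hv.2]⟩
    · rw [uIcc_of_ge h5] at hv
      exact ⟨by linarith [hv.1], by linarith [hv.2]⟩
  have hcov : uIcc u' u'' ⊆ A ∪ B := by
    intro v hv
    obtain ⟨j, hj⟩ := h.ne (W m v)
    rcases L.cov j with rfl | ⟨k, rfl⟩
    · exact absurd hj (hm v (hin v hv)).2.2.2
    · by_cases hk : k ∈ K
      · exact Or.inl ⟨k, hk, hj⟩
      · exact Or.inr ⟨k, hk, hj⟩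
  obtain ⟨v, hv, ⟨a, haK, ha⟩, ⟨b, hbK, hb⟩⟩ := isPreconnected_closed_iff.1
    (isPreconnected_uIcc (a := u') (b := u'')) A B hAc hBc hcov
    ⟨u', left_mem_uIcc, ⟨x, hxK, hx⟩⟩ ⟨u'', right_mem_uIcc, ⟨y, hyK, hy⟩⟩
  have hab : a ≠ b := fun e => hbK (e ▸ haK)
  obtain ⟨hd, hne, hone, hs⟩ := hm v (hin v hv)
  have hdε := lt_of_lt_of_le hd (min_le_left _ _)
  have hd2 : dist (W m v) z < ρ2 / 2 :=
    lt_of_lt_of_le hd ((min_le_right _ _).trans (min_le_left _ _))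
  have hd1 : dist (W m v) z < 1 :=
    lt_of_lt_of_le hd ((min_le_right _ _).trans (min_le_right _ _))
  obtain ⟨hsm, hn5⟩ := hb0 hdε
  obtain ⟨hadj, hT⟩ := hsm hs (hn5 hne hs) a b hab ha hb
  -- the contact
  obtain ⟨i, hTi, hiK⟩ : ∃ i, T (W m v) = {c i, c (i + 1)} ∧ ¬ (i ∈ K ↔ i + 1 ∈ K) := by
    rcases hadj with rfl | rfl
    · exact ⟨a, hT, fun e => hbK (e.1 haK)⟩
    · refine ⟨b, ?_, fun e => hbK (e.2 haK)⟩
      rw [hT, Set.pair_comm]
  refine hiK (hK i ?_ ?_)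
  · obtain ⟨l, hl1, hl2⟩ := contact_let C L (dist_pt z v) (by rw [dist_comm]; exact hone) hne
      (by linarith) hTi
    refine ⟨l, hl1, fun k hk => hb1 ?_ (hl2 k hk)⟩
    have h6 : dist (pt z v) (pt z t₀) < min ρ1 (ρ2 / 2) :=
      hbη (by rw [Real.dist_eq]; exact lt_of_lt_of_le (hin' v hv) hη1')
    exact lt_of_lt_of_le h6 (min_le_left _ _)
  · obtain ⟨l, hl1, hl2⟩ := contact_let C L (q := W m v + z - pt z v) (mir1 hone)
      (mir2 (dist_pt z v)) hne (by linarith) hTi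
    refine ⟨l, hl1, fun k hk => hb2 ?_ (hl2 k hk)⟩
    have h6 : dist (pt z v) (pt z t₀) < min ρ1 (ρ2 / 2) :=
      hbη (by rw [Real.dist_eq]; exact lt_of_lt_of_le (hin' v hv) hη1')
    have h7 := lt_of_lt_of_le h6 (min_le_right _ _)
    rw [pt_three]
    have h8 := mir3 (z := z) (w := W m v) (q := pt z v) (q0 := pt z t₀)
    linarith

end Vale.Agent.P032.R2.H962
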